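import Vale.Agent.Helper8.KTVG.LiteralMain

/-!
# Polynomial mixing of the switch chain for every degree sequence (literal statement)

For every `n ≥ 4` and every degree vector `d` on `n` labelled vertices, the switch chain of
the problem, on the set of all simple graphs on `Fin n` with degree vector `d`, is within
total variation distance `1/4` of the uniform distribution after every number
`t ≥ 6 * C(n,4) * n^2` of steps, from every starting graph.  No hypothesis is placed on `d`.

The statement uses no definitions beyond Mathlib, and the transition matrix `P` is written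
as the chain is described in words: with probability `1/2` stay put; otherwise choose a
4-element vertex set `S` uniformly (weight `1 / C(n,4)` each), then an ordered pair
`(F, F')` of distinct perfect matchings of the complete graph on `S` (weight `1/6` each);
if every edge of `F` is present and every edge of `F'` is absent, replace `F` by `F'`,
otherwise stay put.

* `PM S F`: `F` is a perfect matching of the complete graph on `S`, that is, every member
  of `F` is an unordered pair of two different vertices of `S`, and every vertex of `S`
  lies in exactly one member of `F`.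
* `step G F F'`: the graph after the step from `G` when the pair `(F, F')` was chosen.
-/

namespace Vale.Agent.Results.P335.AllDegreesMixingLiteral

open Finset Classical

theorem result (n : ℕ) (hn : 4 ≤ n) (d : Fin n → ℕ) :
    let PM : Finset (Fin n) → Finset (Sym2 (Fin n)) → Prop := fun S F =>
      (∀ e ∈ F, ¬ e.IsDiag ∧ ∀ v ∈ e, v ∈ S) ∧ (∀ v ∈ S, ∃! e, e ∈ F ∧ v ∈ e)
    let step : SimpleGraph (Fin n) → Finset (Sym2 (Fin n)) → Finset (Sym2 (Fin n)) →
        SimpleGraph (Fin n) := fun G F F' =>
      if (∀ e ∈ F, e ∈ G.edgeSet) ∧ (∀ e ∈ F', e ∉ G.edgeSet)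
      then SimpleGraph.fromEdgeSet
        ((G.edgeSet \ (F : Set (Sym2 (Fin n)))) ∪ (F' : Set (Sym2 (Fin n))))
      else G
    let P : Matrix {G : SimpleGraph (Fin n) // ∀ i, G.degree i = d i}
        {G : SimpleGraph (Fin n) // ∀ i, G.degree i = d i} ℝ := fun G G' =>
      (1 / 2 : ℝ) * (if G' = G then 1 else 0) +
      (1 / 2 : ℝ) * ∑ S ∈ (Finset.univ : Finset (Fin n)).powersetCard 4,
        (1 / (n.choose 4 : ℝ)) *
          ∑ FF ∈ (Finset.univ.filter
              fun FF : Finset (Sym2 (Fin n)) × Finset (Sym2 (Fin n)) =>
                PM S FF.1 ∧ PM S FF.2 ∧ FF.1 ≠ FF.2),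
            (1 / 6 : ℝ) * (if step G.1 FF.1 FF.2 = G'.1 then 1 else 0)
    ∀ t : ℕ, 6 * n.choose 4 * n ^ 2 ≤ t →
      ∀ G : {G : SimpleGraph (Fin n) // ∀ i, G.degree i = d i},
        (1 / 2 : ℝ) * ∑ G' : {G : SimpleGraph (Fin n) // ∀ i, G.degree i = d i},
          |(P ^ t) G G'
            - 1 / (Fintype.card {G : SimpleGraph (Fin n) // ∀ i, G.degree i = d i} : ℝ)|
        ≤ 1 / 4 := by
  intro PM step P t ht G
  have hP : P = Vale.Agent.Helper13.Switch.switchChain n d := by
    rw [← KTVG.H8.literal_eq_switchChain hn d]
    funext G G'
    unfold Vale.Agent.Lead.KTVLiteral.literalChain Vale.Agent.Lead.KTVLiteral.pairs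
    show _ + _ = _ + _
    congr!
  rw [hP]
  exact Vale.Agent.Helper1.KTVGFinal.general_tv hn d (KTVG.gapStmt n d) t ht G

end Vale.Agent.Results.P335.AllDegreesMixingLiteral
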