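import Vale.Agent.Helper8.KTVG.Plain

/-!
# Polynomial mixing of the switch chain for every degree sequence (plain statement)

For every `n ≥ 4` and every degree vector `d` on `n` labelled vertices, the lazy switch
chain on the set of all simple graphs on `Fin n` with degree vector `d` is within total
variation distance `1/4` of the uniform distribution after every number
`t ≥ 6 * C(n,4) * n^2` of steps, from every starting graph.  No hypothesis is placed on `d`.

The statement uses no definitions beyond Mathlib: the transition matrix `P` is written out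
entry by entry.  Two distinct graphs `G`, `G'` have `P G G' = 1 / (12 * C(n,4))` when `G'`
arises from `G` by one switch (one half, times `1 / C(n,4)` for the 4-set, times one sixth
for the ordered pair of perfect matchings; the two graphs determine the 4-set and the
ordered pair) and `P G G' = 0` otherwise, and `P G G` is one minus the sum of the other
entries of the row, that is `1 - N(G) / (12 * C(n,4))` with `N(G)` the number of graphs
that arise from `G` by one switch.
-/

namespace Vale.Agent.Results.P335.AllDegreesMixingPlain

open Finset Classical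

theorem result (n : ℕ) (hn : 4 ≤ n) (d : Fin n → ℕ) :
    let sw : SimpleGraph (Fin n) → SimpleGraph (Fin n) → Prop := fun G G' =>
      ∃ a b c e : Fin n, a ≠ b ∧ a ≠ c ∧ a ≠ e ∧ b ≠ c ∧ b ≠ e ∧ c ≠ e ∧
        (G.Adj a b ∧ G.Adj c e ∧ ¬ G.Adj a c ∧ ¬ G.Adj b e) ∧
        G' = G.deleteEdges {s(a, b), s(c, e)} ⊔ SimpleGraph.fromEdgeSet {s(a, c), s(b, e)}
    let P : Matrix {G : SimpleGraph (Fin n) // ∀ i, G.degree i = d i}
        {G : SimpleGraph (Fin n) // ∀ i, G.degree i = d i} ℝ := fun G G' =>
      if G' = G then
        1 - ((Finset.univ.filter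
            fun H : {G : SimpleGraph (Fin n) // ∀ i, G.degree i = d i} => sw G.1 H.1).card : ℝ)
          / (12 * (n.choose 4 : ℝ))
      else if sw G.1 G'.1 then 1 / (12 * (n.choose 4 : ℝ)) else 0
    ∀ t : ℕ, 6 * n.choose 4 * n ^ 2 ≤ t →
      ∀ G : {G : SimpleGraph (Fin n) // ∀ i, G.degree i = d i},
        (1 / 2 : ℝ) * ∑ G' : {G : SimpleGraph (Fin n) // ∀ i, G.degree i = d i},
          |(P ^ t) G G'
            - 1 / (Fintype.card {G : SimpleGraph (Fin n) // ∀ i, G.degree i = d i} : ℝ)|
        ≤ 1 / 4 := by
  intro sw P t ht G
  have hP : P = Vale.Agent.Helper13.Switch.switchChain n d := by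
    rw [← KTVG.H8.explicit_eq_switchChain hn d]
    funext G G'
    show (if G' = G then _ else _) = (if G' = G then _ else _)
    congr!
  rw [hP]
  exact Vale.Agent.Helper1.KTVGFinal.general_tv hn d (KTVG.gapStmt n d) t ht G

end Vale.Agent.Results.P335.AllDegreesMixingPlain
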