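import Vale.Agent.Helper16.KTV.Poincare

/-!
# Spectral gap of the bipartite switch graph for all margins

For all finite row and column index sets and all row sums `ρ` and column sums
`c`, let `Ω` be the set of all binary tables with these margins (bipartite
graphs with prescribed degrees on both sides).  Two tables are joined by a
switch when one arises from the other by moving the ones at `(a,j)`, `(b,k)` to
`(a,k)`, `(b,j)`.  Then for every real function `f` on tables, twice the sum of
squared deviations of `f` from its mean over `Ω` is at most the sum of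
`(f x - f y)^2` over unordered switch pairs (half the sum over ordered pairs):
the second Laplacian eigenvalue of the switch graph is at least 2.

The statement uses no definitions beyond Mathlib.
-/

namespace Vale.Agent.Results.P335.BipartiteGap

open Finset Classical

theorem result {α β : Type} [Fintype α] [DecidableEq α] [Fintype β] [DecidableEq β]
    (ρ : α → ℕ) (c : β → ℕ) (Ω : Finset (α → β → Bool))
    (hΩ : ∀ x : α → β → Bool, x ∈ Ω ↔
      (∀ a, (univ.filter fun j => x a j = true).card = ρ a) ∧
        (∀ j, (univ.filter fun a => x a j = true).card = c j))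
    (f : (α → β → Bool) → ℝ) :
    2 * ∑ x ∈ Ω, (f x - (∑ y ∈ Ω, f y) / (Ω.card : ℝ)) ^ 2
      ≤ (1 / 2 : ℝ) * ∑ x ∈ Ω, ∑ y ∈ Ω,
          (if (∃ a b j k, a ≠ b ∧ j ≠ k ∧
                x a j = true ∧ x b k = true ∧ x a k = false ∧ x b j = false ∧
                y a j = false ∧ y b k = false ∧ y a k = true ∧ y b j = true ∧
                ∀ r s, ¬ ((r = a ∨ r = b) ∧ (s = j ∨ s = k)) → y r s = x r s)
            then (f x - f y) ^ 2 else 0) := by
  have hΩeq : Ω = KTV.Omega ρ c := by
    ext x
    rw [hΩ x]
    unfold KTV.Omega KTV.rowSum KTV.colSum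
    rw [Finset.mem_filter]
    exact ⟨fun h => ⟨Finset.mem_univ _, h⟩, fun h => h.2⟩
  subst hΩeq
  have h := KTV.switch_poincare ρ c f
  have hd : KTV.dirichlet (KTV.Omega ρ c) KTV.IsSwitch f
      = ∑ x ∈ KTV.Omega ρ c, ∑ y ∈ KTV.Omega ρ c,
          (if (∃ a b j k, a ≠ b ∧ j ≠ k ∧
                x a j = true ∧ x b k = true ∧ x a k = false ∧ x b j = false ∧
                y a j = false ∧ y b k = false ∧ y a k = true ∧ y b j = true ∧
                ∀ r s, ¬ ((r = a ∨ r = b) ∧ (s = j ∨ s = k)) → y r s = x r s)
            then (f x - f y) ^ 2 else 0) := by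
    unfold KTV.dirichlet
    refine Finset.sum_congr rfl (fun x _ => ?_)
    rw [Finset.sum_filter]
    refine Finset.sum_congr rfl (fun y _ => ?_)
    have hiff : KTV.IsSwitch x y ↔ (∃ a b j k, a ≠ b ∧ j ≠ k ∧
                x a j = true ∧ x b k = true ∧ x a k = false ∧ x b j = false ∧
                y a j = false ∧ y b k = false ∧ y a k = true ∧ y b j = true ∧
                ∀ r s, ¬ ((r = a ∨ r = b) ∧ (s = j ∨ s = k)) → y r s = x r s) :=
      Iff.rfl
    by_cases hs : KTV.IsSwitch x y
    · rw [if_pos hs, if_pos (hiff.mp hs)]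
    · rw [if_neg hs, if_neg (fun h' => hs (hiff.mpr h'))]
  have hs : KTV.sqDev (KTV.Omega ρ c) f
      = ∑ x ∈ KTV.Omega ρ c,
          (f x - (∑ y ∈ KTV.Omega ρ c, f y) / ((KTV.Omega ρ c).card : ℝ)) ^ 2 := rfl
  rw [hd, hs] at h
  linarith

end Vale.Agent.Results.P335.BipartiteGap
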