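import Vale.Agent.Helper13.KTV.BipartiteChain
import Vale.Agent.Helper16.KTV.Poincare

/-!
# Polynomial mixing of the bipartite switch chain for all margins

For all finite row and column index sets with at least two elements each, and
all row sums `ρ` and column sums `c`, the lazy switch chain on the binary tables
with these margins (bipartite graphs with prescribed degrees on both sides) is
within total variation distance `1/4` of the uniform distribution after
`C(m,2) * C(n,2) * (m * n)` steps, from every starting table and at every later
time, where `m` and `n` are the numbers of rows and columns.  In particular its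
mixing time is at most that number.

The proof rests on `KTV.switch_poincare`: the switch graph of every class of
binary tables with prescribed margins has second Laplacian eigenvalue at least 2.
-/

namespace Vale.Agent.Results.P335.BipartiteMixing

open Vale.Agent.Helper13.Bip KTV

theorem result {α β : Type} [Fintype α] [DecidableEq α] [Fintype β] [DecidableEq β]
    (hα : 2 ≤ Fintype.card α) (hβ : 2 ≤ Fintype.card β) (ρ : α → ℕ) (c : β → ℕ) :
    (∀ t : ℕ, (Fintype.card α).choose 2 * (Fintype.card β).choose 2
        * (Fintype.card α * Fintype.card β) ≤ t → ∀ x : TabClass ρ c,
      (1 / 2 : ℝ) * ∑ y : TabClass ρ c,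
        |(chainB ρ c ^ t) x y - 1 / (Fintype.card (TabClass ρ c) : ℝ)| ≤ 1 / 4)
    ∧ tmixB ρ c ≤ (Fintype.card α).choose 2 * (Fintype.card β).choose 2
        * (Fintype.card α * Fintype.card β) :=
  ⟨fun t ht x => tvB_le hα hβ ρ c (fun f => switch_poincare ρ c f) t ht x,
    tmixB_le hα hβ ρ c (fun f => switch_poincare ρ c f)⟩

end Vale.Agent.Results.P335.BipartiteMixing
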