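import Vale.Agent.Helper4.KTVG.Final
import Vale.Agent.Helper16.KTVG.Gap

/-!
# Spectral gap of the switch graph for every degree sequence

For every `n` and every degree vector `d` on `n` labelled vertices, the switch
graph on the set of all simple graphs with degree vector `d` has second
Laplacian eigenvalue at least 2: the sum of squared differences of `g` over unordered
pairs of graphs joined by one switch is at least twice the sum of squared
deviations of `g` from its mean. No hypothesis is placed on `d`.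

The statement uses no definitions besides Mathlib's: the class is the subtype
of `SimpleGraph (Fin n)` cut out by the degree condition, and the switch
relation is written out in full.

The proof rests on `KTVG.gapStmt` (pair heat baths, a squaring inequality of
Caputo type with a disjoint-pair inequality, and a Johnson-scheme lemma).
-/

namespace Vale.Agent.Results.P335.GeneralGap

open Vale.Agent.Helper13.Switch
open Classical

theorem result (n : ℕ) (d : Fin n → ℕ)
    (g : {G : SimpleGraph (Fin n) // ∀ i, G.degree i = d i} → ℝ) :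
    2 * ∑ G : {G : SimpleGraph (Fin n) // ∀ i, G.degree i = d i},
        (g G - (∑ H : {G : SimpleGraph (Fin n) // ∀ i, G.degree i = d i}, g H)
            / (Fintype.card {G : SimpleGraph (Fin n) // ∀ i, G.degree i = d i} : ℝ)) ^ 2
      ≤ (1 / 2 : ℝ) * ∑ G : {G : SimpleGraph (Fin n) // ∀ i, G.degree i = d i},
          ∑ G' : {G : SimpleGraph (Fin n) // ∀ i, G.degree i = d i},
            (if (∃ a b c e : Fin n, a ≠ b ∧ a ≠ c ∧ a ≠ e ∧ b ≠ c ∧ b ≠ e ∧ c ≠ e ∧
                  (G.1.Adj a b ∧ G.1.Adj c e ∧ ¬ G.1.Adj a c ∧ ¬ G.1.Adj b e) ∧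
                  G'.1 = G.1.deleteEdges {s(a, b), s(c, e)}
                    ⊔ SimpleGraph.fromEdgeSet {s(a, c), s(b, e)})
              then (g G - g G') ^ 2 else 0) := by
  have h := KTVG.general_gap (KTVG.gapStmt n d) g
  have e : ∀ G G' : {G : SimpleGraph (Fin n) // ∀ i, G.degree i = d i},
      (if (∃ a b c e : Fin n, a ≠ b ∧ a ≠ c ∧ a ≠ e ∧ b ≠ c ∧ b ≠ e ∧ c ≠ e ∧
                  (G.1.Adj a b ∧ G.1.Adj c e ∧ ¬ G.1.Adj a c ∧ ¬ G.1.Adj b e) ∧
                  G'.1 = G.1.deleteEdges {s(a, b), s(c, e)}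
                    ⊔ SimpleGraph.fromEdgeSet {s(a, c), s(b, e)})
              then (g G - g G') ^ 2 else 0)
        = (if IsSwitch G.1 G'.1 then (g G - g G') ^ 2 else 0) := by
    intro G G'
    have hiff : IsSwitch G.1 G'.1 ↔
        (∃ a b c e : Fin n, a ≠ b ∧ a ≠ c ∧ a ≠ e ∧ b ≠ c ∧ b ≠ e ∧ c ≠ e ∧
                  (G.1.Adj a b ∧ G.1.Adj c e ∧ ¬ G.1.Adj a c ∧ ¬ G.1.Adj b e) ∧
                  G'.1 = G.1.deleteEdges {s(a, b), s(c, e)}
                    ⊔ SimpleGraph.fromEdgeSet {s(a, c), s(b, e)}) := Iff.rfl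
    by_cases hs : IsSwitch G.1 G'.1
    · rw [if_pos hs, if_pos (hiff.mp hs)]
    · rw [if_neg hs, if_neg (fun h' => hs (hiff.mpr h'))]
  simp only [e]
  exact h

end Vale.Agent.Results.P335.GeneralGap
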