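import Vale.Agent.Helper4.KTVG.Final
import Vale.Agent.Helper16.KTVG.Gap

/-!
# Polynomial mixing of the switch chain for every degree sequence

For every `n ≥ 4` and every degree vector `d` on `n` labelled vertices, the
lazy switch chain on the set of all simple graphs with degree vector `d` is
within total variation distance `1/4` of the uniform distribution after
`6 * C(n,4) * n^2` steps, from every starting graph, and at every later time.
In particular its mixing time is at most `6 * C(n,4) * n^2`. No hypothesis is
placed on `d`.

The proof rests on `KTVG.gapStmt`: the switch graph of every degree vector has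
second Laplacian eigenvalue at least 2.
-/

namespace Vale.Agent.Results.P335.GeneralMixing

open Vale.Agent.Helper13.Switch
open Classical

theorem result (n : ℕ) (hn : 4 ≤ n) (d : Fin n → ℕ) :
    (∀ t : ℕ, 6 * n.choose 4 * n ^ 2 ≤ t → ∀ G : Realization n d,
      (1 / 2 : ℝ) * ∑ G' : Realization n d,
        |(switchChain n d ^ t) G G' - 1 / (Fintype.card (Realization n d) : ℝ)| ≤ 1 / 4)
    ∧ tmix n d ≤ 6 * n.choose 4 * n ^ 2 :=
  ⟨fun t ht G => KTVG.general_tv hn (KTVG.gapStmt n d) t ht G,
    KTVG.general_tmix hn (KTVG.gapStmt n d)⟩

end Vale.Agent.Results.P335.GeneralMixing
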