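import Vale.Agent.Helper13.KTV.SplitCriterion
import Vale.Agent.Helper16.KTV.Poincare

/-!
# Spectral gap of the switch graph for split degree sequences

For every degree vector `d` that has a split realization (a graph whose vertex
set is the union of a clique `A` and an independent set), the switch graph on
the set of all realizations of `d` has second Laplacian eigenvalue at least 2:
the sum of `(g G - g G')^2` over unordered switch pairs is at least twice the
sum of squared deviations of `g` from its mean.
-/

namespace Vale.Agent.Results.P335.SplitGap

open Vale.Agent.Helper13.Switch Vale.Agent.Helper13.Split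
open Classical

theorem result (n : ℕ) (d : Fin n → ℕ) (A : Finset (Fin n))
    (G0 : SimpleGraph (Fin n)) (hG0 : ∀ i, G0.degree i = d i)
    (hclique : ∀ u ∈ A, ∀ v ∈ A, u ≠ v → G0.Adj u v)
    (hindep : ∀ u, u ∉ A → ∀ v, v ∉ A → ¬ G0.Adj u v)
    (g : Realization n d → ℝ) :
    2 * ∑ G : Realization n d,
        (g G - (∑ H : Realization n d, g H) / (Fintype.card (Realization n d) : ℝ)) ^ 2
      ≤ (1 / 2 : ℝ) * ∑ G : Realization n d, ∑ G' : Realization n d,
          (if IsSwitch G.1 G'.1 then (g G - g G') ^ 2 else 0) := by
  have hsplit : ∀ G : Realization n d, SplitAlong A G.1 :=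
    fun G => all_split_of_one G0 hG0 ⟨hclique, hindep⟩ G
  set m : ℝ := (∑ H : Realization n d, g H) / (Fintype.card (Realization n d) : ℝ) with hm
  have hmean : ∑ G : Realization n d, (g G - m) = 0 := by
    rw [Finset.sum_sub_distrib, Finset.sum_const, nsmul_eq_mul, Finset.card_univ]
    by_cases hN : (Fintype.card (Realization n d) : ℝ) = 0
    · have hempty : IsEmpty (Realization n d) := by
        rw [← Fintype.card_eq_zero_iff]
        exact_mod_cast hN
      simp
    · rw [hm]; field_simp; ring
  have h := split_gap d A hsplit (fun f => KTV.switch_poincare _ _ f) (fun G => g G - m) hmean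
  have e : ∀ G G' : Realization n d,
      (if IsSwitch G.1 G'.1 then (g G - m - (g G' - m)) ^ 2 else 0)
        = (if IsSwitch G.1 G'.1 then (g G - g G') ^ 2 else 0) := by
    intro G G'
    split_ifs
    · ring
    · rfl
  simp only [e] at h
  exact h

end Vale.Agent.Results.P335.SplitGap
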