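import Vale.Agent.Helper13.KTV.SplitCriterion
import Vale.Agent.Helper16.KTV.Poincare

/-!
# Polynomial mixing of the switch chain for split degree sequences

For every `n ≥ 4` and every degree vector `d` on `n` labelled vertices that has a
split realization (a graph whose vertex set is the union of a clique `A` and an
independent set), the lazy switch chain on the set of all realizations of `d`
is within total variation distance `1/4` of the uniform distribution after
`6 * C(n,4) * n^2` steps, from every starting graph, and at every later time.
In particular its mixing time is at most `6 * C(n,4) * n^2`.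

The proof rests on `KTV.switch_poincare`: the switch graph of every class of
binary tables with prescribed margins has second Laplacian eigenvalue at least 2.
-/

namespace Vale.Agent.Results.P335.SplitMixing

open Vale.Agent.Helper13.Switch Vale.Agent.Helper13.Split
open Classical

theorem result (n : ℕ) (hn : 4 ≤ n) (d : Fin n → ℕ) (A : Finset (Fin n))
    (G0 : SimpleGraph (Fin n)) (hG0 : ∀ i, G0.degree i = d i)
    (hclique : ∀ u ∈ A, ∀ v ∈ A, u ≠ v → G0.Adj u v)
    (hindep : ∀ u, u ∉ A → ∀ v, v ∉ A → ¬ G0.Adj u v) :
    (∀ t : ℕ, 6 * n.choose 4 * n ^ 2 ≤ t → ∀ G : Realization n d,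
      (1 / 2 : ℝ) * ∑ G' : Realization n d,
        |(switchChain n d ^ t) G G' - 1 / (Fintype.card (Realization n d) : ℝ)| ≤ 1 / 4)
    ∧ tmix n d ≤ 6 * n.choose 4 * n ^ 2 :=
  ⟨fun t ht G => split_tv_of_split_graph hn d A G0 hG0 ⟨hclique, hindep⟩
      (fun f => KTV.switch_poincare _ _ f) t ht G,
    split_tmix_of_split_graph hn d A G0 hG0 ⟨hclique, hindep⟩
      (fun f => KTV.switch_poincare _ _ f)⟩

end Vale.Agent.Results.P335.SplitMixing
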